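import Vale.Agent.Lib.P329.Schutz
import Vale.Agent.Lib.P329.helper24.BlockDefs

/-!
# P329: counter-free automata are star-free

The transition monoid of a counter-free deterministic automaton is aperiodic, so by
Schutzenberger's theorem the language of the words leading from one state to another is
star-free. Applied to the event-free automaton `kill δ ev`, this gives the hypothesis of the
hub-event lemma: the event-free path languages `evK δ ev p q` are star-free.
-/

namespace Vale.Agent.Lib.P329.helper17

open Vale.Agent.Lib.P329 Vale.Agent.Lib.P329.helper24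

section transition

variable {α S : Type} (δ : S → α → S)

/-- The transition monoid of a deterministic automaton: the maps of the state set induced by
words, composed in reading order. -/
def TMon : Type := {f : S → S // ∃ u : List α, f = fun s => run δ s u}

instance : Monoid (TMon δ) where
  mul f g := ⟨fun s => g.1 (f.1 s), by
    obtain ⟨u, hu⟩ := f.2
    obtain ⟨v, hv⟩ := g.2
    refine ⟨u ++ v, ?_⟩
    funext s
    have h1 : f.1 s = run δ s u := congrFun hu s
    have h2 : g.1 (f.1 s) = run δ (f.1 s) v := congrFun hv (f.1 s)
    rw [run_append, h2, h1]⟩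
  one := ⟨fun s => s, ⟨[], rfl⟩⟩
  mul_assoc := fun _ _ _ => rfl
  one_mul := fun _ => rfl
  mul_one := fun _ => rfl

instance [Finite S] : Finite (TMon δ) := by
  unfold TMon
  infer_instance

theorem TMon.mul_val (f g : TMon δ) (s : S) : (f * g).1 s = g.1 (f.1 s) := rfl

/-- The image of a letter in the transition monoid. -/
def tlet (a : α) : TMon δ := ⟨fun s => δ s a, ⟨[a], rfl⟩⟩

theorem tprod_val (w : List α) (s : S) : ((w.map (tlet δ)).prod).1 s = run δ s w := by
  induction w generalizing s with
  | nil => rfl
  | cons a w ih =>
    rw [List.map_cons, List.prod_cons, TMon.mul_val, ih]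
    rfl

theorem tpow_val (x : TMon δ) (u : List α) (hu : x.1 = fun s => run δ s u) (k : ℕ) (s : S) :
    (x ^ k).1 s = run δ s (rep k u) := by
  have h3 : ∀ t, x.1 t = run δ t u := fun t => congrFun hu t
  induction k generalizing s with
  | zero =>
    rw [pow_zero]
    rfl
  | succ k ih =>
    rw [pow_succ, TMon.mul_val, ih, h3]
    exact (run_append δ s (rep k u) u).symm

theorem TMon.aperiodic (hcf : CounterFree δ) (x : TMon δ) : ∃ n : ℕ, x ^ n = x ^ (n + 1) := by
  obtain ⟨u, hu⟩ := x.2
  obtain ⟨k, hk⟩ := hcf u
  refine ⟨k, Subtype.ext (funext fun s => ?_)⟩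
  rw [tpow_val δ x u hu, tpow_val δ x u hu]
  exact (hk s).symm

/-- In a counter-free automaton with finitely many states, the words leading from `p` to `s`
form a star-free language. -/
theorem hle_run_of_counterFree [Fintype α] [Finite S] (hcf : CounterFree δ) (p s : S) :
    HLE 0 ({w : List α | run δ p w = s} : Language α) := by
  have : Fintype (TMon δ) := Fintype.ofFinite _
  have h1 := HLE.exists (n := 0) (fun m : TMon δ => m.1 p = s)
    (fun m => ({w : List α | (w.map (tlet δ)).prod = m} : Language α))
    (fun m _ => schutzenberger (TMon.aperiodic δ hcf) (tlet δ) m)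
  refine h1.congr ?_
  intro w
  constructor
  · intro hw
    refine ⟨(w.map (tlet δ)).prod, ?_, rfl⟩
    rw [tprod_val]
    exact hw
  · rintro ⟨m, hm, hw⟩
    have hw' : (w.map (tlet δ)).prod = m := hw
    show run δ p w = s
    rw [← tprod_val δ w p, hw']
    exact hm

end transition

section events

variable {α Q : Type} (δ : Q → α → Q) (ev : Q → α → Bool)

theorem run_kill_none (w : List α) : run (kill δ ev) none w = none := by
  induction w with
  | nil => rfl
  | cons c w ih => exact ih

theorem run_kill_some (p : Q) (w : List α) (q : Q) :
    run (kill δ ev) (some p) w = some q ↔ (nev δ ev p w ∧ run δ p w = q) := by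
  induction w generalizing p with
  | nil => simp [nev]
  | cons c w ih =>
    rw [run_cons]
    cases hc : ev p c
    · have h1 : kill δ ev (some p) c = some (δ p c) := by simp [kill, hc]
      rw [h1, ih]
      simp [nev, hc]
    · have h1 : kill δ ev (some p) c = none := by simp [kill, hc]
      rw [h1, run_kill_none]
      simp [nev, hc]

/-- If the event-free automaton is counter-free, the event-free path languages are
star-free: this is the hypothesis `hK` of the hub-event lemma. -/
theorem evK_hle_of_counterFree [Fintype α] [Fintype Q] (hcf : CounterFree (kill δ ev))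
    (p q : Q) : HLE 0 (evK δ ev p q) := by
  refine (hle_run_of_counterFree (kill δ ev) hcf (some p) (some q)).congr ?_
  intro w
  exact (run_kill_some δ ev p w q).symm

end events

end Vale.Agent.Lib.P329.helper17
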